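import Vale.Agent.P198.M.Main

/-! # P198 block U: continuous logarithms (Eilenberg) -/

namespace Vale.Agent.P198
open Set Metric Filter Topology

/-- `φ` has a continuous logarithm on `K`. -/
def HasLog {X : Type} [TopologicalSpace X] (K : Set X) (φ : X → ℂ) : Prop :=
  ∃ l : X → ℂ, ContinuousOn l K ∧ ∀ z ∈ K, Complex.exp (l z) = φ z

section
variable {X : Type} [TopologicalSpace X] {K : Set X} {φ ψ : X → ℂ}

theorem HasLog.mono (h : HasLog K φ) {K' : Set X} (hK : K' ⊆ K) : HasLog K' φ :=
  let ⟨l, h1, h2⟩ := h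
  ⟨l, h1.mono hK, fun z hz => h2 z (hK hz)⟩

theorem HasLog.congr (h : HasLog K φ) (e : ∀ z ∈ K, φ z = ψ z) : HasLog K ψ :=
  let ⟨l, h1, h2⟩ := h
  ⟨l, h1, fun z hz => (h2 z hz).trans (e z hz)⟩

theorem HasLog.near (h : HasLog K φ) (hψ : ContinuousOn ψ K)
    (hn : ∀ z ∈ K, ‖ψ z - φ z‖ < ‖φ z‖) : HasLog K ψ := by
  obtain ⟨l, h1, h2⟩ := h
  have hs : ∀ z ∈ K, ψ z / Complex.exp (l z) ∈ Complex.slitPlane := fun z hz => by
    have h0 := Complex.exp_ne_zero (l z)
    have e : ψ z / Complex.exp (l z) = 1 + (ψ z - Complex.exp (l z)) / Complex.exp (l z) := by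
      field_simp
      ring
    rw [e]
    refine Complex.mem_slitPlane_of_norm_lt_one ?_
    rw [norm_div, div_lt_one (norm_pos_iff.2 h0), h2 z hz]
    exact hn z hz
  refine ⟨fun z => l z + Complex.log (ψ z / Complex.exp (l z)), h1.add ?_, fun z hz => ?_⟩
  · exact (hψ.div h1.cexp fun z _ => Complex.exp_ne_zero _).clog hs
  · rw [Complex.exp_add, Complex.exp_log (Complex.slitPlane_ne_zero (hs z hz)),
      mul_div_cancel₀ _ (Complex.exp_ne_zero _)]

theorem hasLog_const (K : Set X) {c : ℂ} (hc : c ≠ 0) : HasLog K fun _ => c :=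
  ⟨fun _ => Complex.log c, continuousOn_const, fun _ _ => Complex.exp_log hc⟩

theorem log_extend [NormalSpace X] (hK : IsClosed K) (hφ : ContinuousOn φ K) :
    ∃ Φ : C(X, ℂ), ∀ z ∈ K, Φ z = φ z := by
  obtain ⟨Φ, h⟩ := ContinuousMap.exists_restrict_eq hK
    (⟨fun z : K => φ z, continuousOn_iff_continuous_domRestrict.1 hφ⟩ : C(K, ℂ))
  exact ⟨Φ, fun z hz => congrArg (fun f : C(K, ℂ) => f ⟨z, hz⟩) h⟩

theorem HasLog.extend [NormalSpace X] (h : HasLog K φ) (hK : IsClosed K) :
    ∃ l : C(X, ℂ), ∀ z ∈ K, Complex.exp (l z) = φ z := by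
  obtain ⟨l, h1, h2⟩ := h
  obtain ⟨l', h3⟩ := log_extend hK h1
  exact ⟨l', fun z hz => by rw [h3 z hz, h2 z hz]⟩

theorem log_closed_comp {L : Set X} (hL : IsClosed L) (x : X) :
    IsClosed (connectedComponentIn L x) := by
  by_cases hx : x ∈ L
  · rw [connectedComponentIn_eq_image hx]
    exact hL.isClosedEmbedding_subtypeVal.isClosedMap _ isClosed_connectedComponent
  · rw [connectedComponentIn_eq_empty hx]
    exact isClosed_empty

end

/-- A logarithm on every component gives a logarithm. -/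
theorem log_of_comp {Z : Type} [MetricSpace Z] {L : Set Z} (hL : IsCompact L) {φ : Z → ℂ}
    (hφ : ContinuousOn φ L) (h : ∀ x ∈ L, HasLog (connectedComponentIn L x) φ) : HasLog L φ := by
  classical
  obtain ⟨Φ, hΦ⟩ := log_extend hL.isClosed hφ
  have key : ∃ W, IsOpen W ∧ L ⊆ W ∧ Disjoint (frontier W) L ∧ HasLog (L ∩ W) Φ := by
    refine hL.induction_on
      (p := fun S => ∃ W, IsOpen W ∧ S ⊆ W ∧ Disjoint (frontier W) L ∧ HasLog (L ∩ W) Φ)
      ⟨∅, isOpen_empty, Subset.rfl, by simp, 0, by simp, by simp⟩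
      (fun s t hst ⟨W, h1, h2, h3⟩ => ⟨W, h1, hst.trans h2, h3⟩) ?_ fun x hx => ?_
    · rintro s t ⟨W, h1, h2, h3, l, h4, h5⟩ ⟨W', h1', h2', h3', l', h4', h5'⟩
      refine ⟨W ∪ W', h1.union h1', union_subset_union h2 h2', ?_, W.piecewise l l', ?_,
        fun z hz => ?_⟩
      · refine Disjoint.mono_left (frontier_union_subset W W') ?_
        exact disjoint_union_left.2 ⟨h3.mono_left inter_subset_left,
          h3'.mono_left inter_subset_right⟩
      · refine ContinuousOn.piecewise (fun z hz => (disjoint_left.1 h3 hz.2 hz.1.1).elim)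
          (h4.mono fun z hz => ⟨hz.1.1, ?_⟩) (h4'.mono fun z hz => ⟨hz.1.1, ?_⟩)
        · by_contra hn
          refine disjoint_left.1 h3 ?_ hz.1.1
          rw [h1.frontier_eq]
          exact ⟨hz.2, hn⟩
        · have h6 := hz.2
          rw [h1.isClosed_compl.closure_eq] at h6
          exact hz.1.2.resolve_left h6
      · by_cases hw : z ∈ W
        · rw [piecewise_eq_of_mem _ _ _ hw]
          exact h5 z ⟨hz.1, hw⟩
        · rw [piecewise_eq_of_notMem _ _ _ hw]
          exact h5' z ⟨hz.1, hz.2.resolve_left hw⟩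
    · obtain ⟨l, hl⟩ := (h x hx).extend (log_closed_comp hL.isClosed x)
      have hN : IsOpen {z | ‖Φ z - Complex.exp (l z)‖ < ‖Complex.exp (l z)‖} :=
        isOpen_lt (by fun_prop) (by fun_prop)
      obtain ⟨W, h1, h2, h3, h4⟩ := sep_comp hL hN hx fun z hz => by
        have h0 := norm_pos_iff.2 (Complex.exp_ne_zero (l z))
        rw [mem_ofPred_eq, hΦ z (connectedComponentIn_subset L x hz), ← hl z hz, sub_self, norm_zero]
        exact h0
      refine ⟨W, mem_nhdsWithin_of_mem_nhds (h1.mem_nhds (h2 (mem_connectedComponentIn hx))),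
        W, h1, Subset.rfl, h4, ?_⟩
      exact HasLog.near (φ := fun z => Complex.exp (l z))
        ⟨l, l.continuous.continuousOn, fun _ _ => rfl⟩ Φ.continuous.continuousOn
        fun z hz => h3 (subset_closure hz.2)
  obtain ⟨W, -, h2, -, h4⟩ := key
  exact (h4.mono fun z hz => ⟨hz, h2 hz⟩).congr hΦ

/-- A map of the plane that equals `z - β` on a circle around `β` has a zero. -/
theorem log_wind {g : ℂ → ℂ} (hg : Continuous g) (h0 : ∀ z, g z ≠ 0) {β : ℂ} {R : ℝ} (hR : 0 < R)
    (h : ∀ z, ‖z - β‖ = R → g z = z - β) : False := by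
  have hs : IsSimplyConnected (univ : Set ℂ) :=
    (Homeomorph.Set.univ ℂ).toHomotopyEquiv.simplyConnectedSpace
  obtain ⟨G, h1, h2⟩ := Complex.exists_continuousOn_eqOn_exp_comp hs isOpen_univ hg.continuousOn
    (by rintro ⟨z, -, e⟩; exact h0 z e)
  have hG : Continuous G := continuousOn_univ.1 h1
  have h3 : ∀ t : ℝ, Complex.exp (G (β + R * Complex.exp (t * Complex.I))) =
      R * Complex.exp (t * Complex.I) := fun t => by
    have := h2 (mem_univ (β + R * Complex.exp (t * Complex.I)))
    rw [Function.comp_apply, h _ (by simp [hR.le]), add_sub_cancel_left] at this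
    exact this
  have h4 : Complex.exp (G (β + R)) = R := by simpa using h3 0
  have h5 := Complex.isCoveringMap_exp.eq_of_comp_eq
    (g₁ := fun t : ℝ => G (β + R * Complex.exp (t * Complex.I)))
    (g₂ := fun t : ℝ => G (β + R) + t * Complex.I) (by fun_prop) (by fun_prop)
    (funext fun t => Subtype.ext (by
      change Complex.exp _ = Complex.exp _
      rw [h3, Complex.exp_add, h4])) 0 (by simp)
  have h6 := congrFun h5 (2 * Real.pi)
  simp only [Complex.ofReal_mul, Complex.ofReal_ofNat, Complex.exp_two_pi_mul_I, mul_one,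
    left_eq_add] at h6
  exact Complex.two_pi_I_ne_zero h6

section
variable {Z : Type} [MetricSpace Z] [CompactSpace Z] {e : OpenPartialHomeomorph Z ℂ} {a b : Z}

omit [CompactSpace Z] in
theorem log_symm_cont (ht : e.target = univ) : Continuous e.symm :=
  continuousOn_univ.1 (ht ▸ e.continuousOn_symm)

theorem log_bound (hs : e.source = {a}ᶜ) {K : Set Z} (hK : IsClosed K) (ha : a ∉ K) :
    K ⊆ e.source ∧ IsCompact (e '' K) := by
  have h : K ⊆ e.source := fun z hz => by
    rw [hs]
    rintro rfl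
    exact ha hz
  exact ⟨h, hK.isCompact.image_of_continuousOn (e.continuousOn.mono h)⟩

/-- A logarithm on `L` gives a path off `L`. -/
theorem joined_of_log [LocallyPathConnectedSpace Z] (hs : e.source = {a}ᶜ) (ht : e.target = univ)
    {L : Set Z} (hL : IsClosed L) (ha : a ∉ L) (hb : b ∉ L) (hab : b ≠ a)
    (h : HasLog L fun z => e z - e b) : JoinedIn Lᶜ a b := by
  classical
  by_contra hn
  have hV : IsOpen (pathComponentIn Lᶜ b) := hL.isOpen_compl.pathComponentIn b
  have hcl : ∀ y ∈ closure (pathComponentIn Lᶜ b), y ∉ L → y ∈ pathComponentIn Lᶜ b := by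
    intro y hy hyL
    obtain ⟨w, hw, hw'⟩ := mem_closure_iff.1 hy _ (hL.isOpen_compl.pathComponentIn y)
      (mem_pathComponentIn_self hyL)
    exact JoinedIn.trans hw' (JoinedIn.symm hw)
  have ha' : a ∉ closure (pathComponentIn Lᶜ b) := fun h => hn (JoinedIn.symm (hcl a h ha))
  obtain ⟨l, hl⟩ := h.extend hL
  have hc := log_symm_cont ht
  have hr : ∀ w, e (e.symm w) = w := fun w => e.right_inv (ht ▸ mem_univ w)
  have hb' : e.symm (e b) = b := e.left_inv (hs ▸ hab)
  obtain ⟨R, hR, h1⟩ := (log_bound hs isClosed_closure ha').2.isBounded.subset_ball_lt 0 (e b)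
  refine log_wind (g := fun w => if e.symm w ∈ pathComponentIn Lᶜ b then
    Complex.exp (l (e.symm w)) else w - e b) (β := e b) ?_ (fun w => ?_) hR fun w hw => ?_
  · refine Continuous.if (fun w hw => ?_) (by fun_prop) (by fun_prop)
    have h2 := hc.frontier_preimage_subset (pathComponentIn Lᶜ b) hw
    rw [mem_preimage, hV.frontier_eq] at h2
    rw [hl _ (by_contra fun h3 => h2.2 (hcl _ h2.1 h3)), hr]
  · split_ifs with h2
    · exact Complex.exp_ne_zero _
    · intro h3
      rw [sub_eq_zero.1 h3, hb'] at h2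
      exact h2 (mem_pathComponentIn_self hb)
  · refine if_neg fun h2 => ?_
    have h3 := h1 ⟨_, subset_closure h2, hr w⟩
    rw [mem_ball, dist_eq_norm, hw] at h3
    exact lt_irrefl _ h3

/-- A path off `K` gives a logarithm on `K`. -/
theorem log_of_joined (hs : e.source = {a}ᶜ) (ht : e.target = univ) {K : Set Z} (hK : IsClosed K)
    (hab : b ≠ a) (h : JoinedIn Kᶜ a b) : HasLog K fun z => e z - e b := by
  have ha : a ∉ K := h.source_mem
  obtain ⟨hKs, hKc⟩ := log_bound hs hK ha
  have hco : ∀ c : ℂ, ContinuousOn (fun z => e z - c) K := fun c =>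
    (e.continuousOn.mono hKs).sub continuousOn_const
  have key : ∀ c ∉ K, ∀ᶠ c' in 𝓝 c, (c' = a ∨ HasLog K fun z => e z - e c') =
      (c = a ∨ HasLog K fun z => e z - e c) := by
    intro c hc
    by_cases hca : c = a
    · subst hca
      obtain ⟨R, hR, h1⟩ := hKc.isBounded.subset_ball_lt 0 0
      have h2 : IsClosed (e.symm '' closedBall 0 R) :=
        ((isCompact_closedBall 0 R).image (log_symm_cont ht)).isClosed
      have h3 : c ∈ (e.symm '' closedBall 0 R)ᶜ := by
        rintro ⟨w, -, hw⟩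
        have := e.map_target (ht ▸ mem_univ w)
        rw [hs, hw] at this
        exact this rfl
      filter_upwards [h2.isOpen_compl.mem_nhds h3] with c' hc'
      refine propext (iff_of_true ?_ (Or.inl rfl))
      refine or_iff_not_imp_left.2 fun h4 => ?_
      have h5 : R < ‖e c'‖ := by
        by_contra h6
        exact hc' ⟨e c', by simpa using h6, e.left_inv (hs ▸ h4)⟩
      refine (hasLog_const K (c := -e c') (by rintro h6; simp_all; linarith)).near (hco _)
        fun z hz => ?_
      have h7 := h1 (mem_image_of_mem e hz)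
      rw [mem_ball, dist_zero_right] at h7
      rw [sub_neg_eq_add, sub_add_cancel, norm_neg]
      exact h7.trans h5
    · have hcs : c ∈ e.source := hs ▸ hca
      have h1 : e c ∈ (e '' K)ᶜ := by
        rintro ⟨z, hz, h2⟩
        exact hc (e.injOn (hKs hz) hcs h2 ▸ hz)
      obtain ⟨δ, hδ, h2⟩ := Metric.isOpen_iff.1 hKc.isClosed.isOpen_compl _ h1
      have h3 : ∀ z ∈ K, δ ≤ ‖e z - e c‖ := fun z hz => by
        by_contra h4
        exact h2 (mem_ball_iff_norm.2 (not_le.1 h4)) (mem_image_of_mem e hz)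
      filter_upwards [(e.continuousAt hcs).preimage_mem_nhds (ball_mem_nhds _ (half_pos hδ)),
        e.open_source.mem_nhds hcs] with c' h4 h5
      rw [hs] at h5
      rw [mem_preimage, mem_ball_iff_norm] at h4
      refine propext ⟨fun h6 => Or.inr ((h6.resolve_left h5).near (hco _) fun z hz => ?_),
        fun h6 => Or.inr ((h6.resolve_left hca).near (hco _) fun z hz => ?_)⟩
      · have h7 := h3 z hz
        have h8 := norm_sub_le_norm_sub_add_norm_sub (e z) (e c') (e c)
        rw [sub_sub_sub_cancel_left]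
        linarith
      · have h7 := h3 z hz
        rw [sub_sub_sub_cancel_left, norm_sub_rev]
        linarith
  obtain ⟨γ, hγ⟩ := h
  have hl : IsLocallyConstant fun t => (γ t = a ∨ HasLog K fun z => e z - e (γ t)) :=
    (IsLocallyConstant.iff_eventually_eq _).2 fun t =>
      γ.continuous.continuousAt.eventually (key (γ t) (hγ t))
  have h1 := hl.apply_eq_of_preconnectedSpace 0 1
  rw [γ.source, γ.target] at h1
  exact (h1 ▸ Or.inl rfl : b = a ∨ HasLog K fun z => e z - e b).resolve_left hab

theorem unicoh_of_chart [LocallyPathConnectedSpace Z] (hs : e.source = {a}ᶜ)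
    (ht : e.target = univ) {L : Set Z} (hL : IsClosed L) (ha : a ∉ L) (hb : b ∉ L)
    (h : ¬ JoinedIn Lᶜ a b) : ∃ x ∈ L, ¬ JoinedIn (connectedComponentIn L x)ᶜ a b := by
  have hab : b ≠ a := by
    rintro rfl
    exact h (JoinedIn.refl ha)
  by_contra hn
  push Not at hn
  refine h (joined_of_log hs ht hL ha hb hab (log_of_comp hL.isCompact ?_ fun x hx => ?_))
  · exact (e.continuousOn.mono (log_bound hs hL ha).1).sub continuousOn_const
  · exact log_of_joined hs ht (log_closed_comp hL x) hab (hn x hx)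

end

end Vale.Agent.P198
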