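import Vale.Agent.P198.U.Log

/-! # P198 block U: topology of the 2-sphere (interface) -/

namespace Vale.Agent.P198
open Set Metric Filter Topology MeasureTheory
variable {Z : Type} [MetricSpace Z]

theorem uMain_fact : Fact (Module.finrank ℝ (EuclideanSpace ℝ (Fin 3)) = 2 + 1) := ⟨by simp⟩

theorem uMain_compact (hZ : Nonempty (Z ≃ₜ S2)) : CompactSpace Z :=
  let ⟨φ⟩ := hZ
  φ.symm.compactSpace

theorem uMain_out (c : ℂ) {r : ℝ} (hr : 0 ≤ r) : IsPreconnected (closedBall c r)ᶜ := by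
  have e : (closedBall c r)ᶜ = (fun p : ℝ × ℝ => c + p.1 * Complex.exp (p.2 * Complex.I)) ''
      (Ioi r ×ˢ univ) := by
    ext z
    simp only [mem_compl_iff, mem_closedBall, dist_eq_norm, not_le]
    constructor
    · intro hz
      refine ⟨(‖z - c‖, Complex.arg (z - c)), ⟨hz, mem_univ _⟩, ?_⟩
      simp only [Complex.norm_mul_exp_arg_mul_I, add_sub_cancel]
    · rintro ⟨⟨t, θ⟩, ⟨ht, -⟩, rfl⟩
      have ht' : r < t := ht
      simpa [abs_of_pos (hr.trans_lt ht')] using ht'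
  rw [e]
  exact (isPreconnected_Ioi.prod isPreconnected_univ).image _ (by fun_prop)

theorem uMain_arc {f : ℝ → Z} (hf : Continuous f) (hi : f 0 ≠ f 1) :
    Cont (f '' Icc 0 1) ∧ (f '' Icc 0 1).Nontrivial :=
  ⟨⟨isCompact_Icc.image hf, (isConnected_Icc zero_le_one).image _ hf.continuousOn⟩,
    _, mem_image_of_mem f (left_mem_Icc.2 zero_le_one), _,
    mem_image_of_mem f (right_mem_Icc.2 zero_le_one), hi⟩

theorem sph_conn (hZ : Nonempty (Z ≃ₜ S2)) :
    PathConnectedSpace Z ∧ LocallyPathConnectedSpace Z ∧ Infinite Z := by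
  obtain ⟨φ⟩ := hZ
  have := uMain_fact
  have h1 : PathConnectedSpace S2 := isPathConnected_iff_pathConnectedSpace.1
    (isPathConnected_sphere (by rw [← Module.finrank_eq_rank]; simp) 0 zero_le_one)
  have h2 : LocallyPathConnectedSpace S2 :=
    ChartedSpace.locallyPathConnectedSpace (EuclideanSpace ℝ (Fin 2)) S2
  have h3 : PathConnectedSpace Z := φ.symm.surjective.pathConnectedSpace φ.symm.continuous
  refine ⟨h3, φ.isOpenEmbedding.locallyPathConnectedSpace, ?_⟩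
  obtain ⟨v⟩ : Nonempty S2 := inferInstance
  have h4 : Function.Injective (stereographic' 2 v).symm := fun x y h =>
    (stereographic' 2 v).symm.injOn (by simp) (by simp) h
  exact Infinite.of_injective _ (φ.symm.injective.comp h4)

/-- Stereographic projection. -/
theorem sph_chart (hZ : Nonempty (Z ≃ₜ S2)) (η : Z) :
    ∃ e : OpenPartialHomeomorph Z ℂ, e.source = {η}ᶜ ∧ e.target = univ := by
  obtain ⟨φ⟩ := hZ
  have := uMain_fact
  refine ⟨(φ.transOpenPartialHomeomorph (stereographic' 2 (φ η))).transHomeomorph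
    Complex.orthonormalBasisOneI.repr.symm.toHomeomorph, ?_, ?_⟩
  · ext z
    simp
  · ext z
    simp

/-- Uniformly small closed discs. -/
theorem sph_small (hZ : Nonempty (Z ≃ₜ S2)) {ε : ℝ} (hε : 0 < ε) : ∃ δ > 0, ∀ p : Z, ∃ D : Set Z,
    ball p δ ⊆ D ∧ D ⊆ ball p ε ∧ IsClosed D ∧ IsPathConnected D ∧ IsPathConnected Dᶜ := by
  obtain ⟨h1, h2, h3⟩ := sph_conn hZ
  have h4 := uMain_compact hZ
  have key : ∀ p : Z, ∃ D : Set Z, p ∈ interior D ∧ D ⊆ ball p (ε / 2) ∧ IsClosed D ∧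
      IsPathConnected D ∧ IsPathConnected Dᶜ := by
    intro p
    obtain ⟨η, hη⟩ := exists_ne p
    obtain ⟨e, hs, ht⟩ := sph_chart hZ η
    have hc := log_symm_cont ht
    have hp : p ∈ e.source := hs ▸ hη.symm
    have hl : ∀ z, z ≠ η → e.symm (e z) = z := fun z hz => e.left_inv (hs ▸ hz)
    have hr : ∀ w, e (e.symm w) = w := fun w => e.right_inv (ht ▸ mem_univ w)
    have hn : ∀ w, e.symm w ≠ η := fun w => by
      have := e.map_target (ht ▸ mem_univ w)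
      rwa [hs] at this
    have h5 : e.symm ⁻¹' ball p (ε / 2) ∈ 𝓝 (e p) :=
      hc.continuousAt.preimage_mem_nhds (by rw [hl p hη.symm]; exact ball_mem_nhds _ (half_pos hε))
    obtain ⟨r, hr0, h6⟩ := nhds_basis_closedBall.mem_iff.1 h5
    have hD : IsClosed (e.symm '' closedBall (e p) r) :=
      ((isCompact_closedBall _ r).image hc).isClosed
    have hη' : η ∈ (e.symm '' closedBall (e p) r)ᶜ := fun ⟨w, _, hw⟩ => hn w hw
    have h7 : ∀ z, z ≠ η → z ∈ (e.symm '' closedBall (e p) r)ᶜ →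
        z ∈ e.symm '' (closedBall (e p) r)ᶜ := fun z hz hz' =>
      ⟨e z, fun h => hz' ⟨e z, h, hl z hz⟩, hl z hz⟩
    refine ⟨e.symm '' closedBall (e p) r, mem_interior_iff_mem_nhds.2 ?_, image_subset_iff.2 h6, hD,
      ((convex_closedBall _ r).isPathConnected (nonempty_closedBall.2 hr0.le)).image hc,
      hD.isOpen_compl.isConnected_iff_isPathConnected.1 ⟨⟨η, hη'⟩, ?_⟩⟩
    · filter_upwards [(e.continuousAt hp).preimage_mem_nhds (closedBall_mem_nhds _ hr0),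
        e.open_source.mem_nhds hp] with z hz hz'
      exact ⟨e z, hz, e.left_inv hz'⟩
    · refine ((uMain_out (e p) hr0.le).image _ hc.continuousOn).subset_closure ?_ fun z hz => ?_
      · rintro _ ⟨w, hw, rfl⟩ ⟨w', hw', h⟩
        have h8 := congrArg e h
        rw [hr, hr] at h8
        exact hw (h8 ▸ hw')
      · by_cases h : z = η
        · subst h
          refine mem_closure_iff_nhds.2 fun t ht' => ?_
          obtain ⟨y, hy⟩ := Filter.nonempty_of_mem (f := 𝓝[≠] z) (inter_mem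
            (mem_nhdsWithin_of_mem_nhds (inter_mem ht' (hD.isOpen_compl.mem_nhds hz)))
            self_mem_nhdsWithin)
          exact ⟨y, hy.1.1, h7 y hy.2 hy.1.2⟩
        · exact subset_closure (h7 z h hz)
  choose D k1 k2 k3 k4 k5 using key
  obtain ⟨δ, hδ, h5⟩ := lebesgue_number_lemma_of_metric (c := fun p => interior (D p))
    isCompact_univ (fun _ => isOpen_interior) fun p _ => mem_iUnion.2 ⟨p, k1 p⟩
  refine ⟨δ, hδ, fun p => ?_⟩
  obtain ⟨q, hq⟩ := h5 p (mem_univ p)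
  have h6 := hq.trans interior_subset
  refine ⟨D q, h6, fun z hz => ?_, k3 q, k4 q, k5 q⟩
  have h7 := mem_ball.1 (k2 q hz)
  have h8 := mem_ball.1 (k2 q (h6 (mem_ball_self hδ)))
  rw [mem_ball]
  linarith [dist_triangle_right z p q]

/-- The four sides of a square. -/
theorem sph_square (hZ : Nonempty (Z ≃ₜ S2)) : ∃ E₁ F₁ E₂ F₂ : Set Z,
    (Cont E₁ ∧ Cont F₁ ∧ Cont E₂ ∧ Cont F₂) ∧
    (E₁.Nontrivial ∧ F₁.Nontrivial ∧ E₂.Nontrivial ∧ F₂.Nontrivial) ∧
    Disjoint E₁ F₁ ∧ Disjoint E₂ F₂ ∧ (E₁ ∩ E₂).Nonempty ∧ (F₁ ∩ E₂).Nonempty ∧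
    (E₁ ∩ F₂).Nonempty ∧ (F₁ ∩ F₂).Nonempty := by
  obtain ⟨h1, -, -⟩ := sph_conn hZ
  obtain ⟨η⟩ : Nonempty Z := inferInstance
  obtain ⟨e, -, ht⟩ := sph_chart hZ η
  have hc := log_symm_cont ht
  have hi : ∀ x y x' y' : ℝ, e.symm (x + y * Complex.I) = e.symm (x' + y' * Complex.I) →
      x = x' ∧ y = y' := fun x y x' y' h => by
    have hm : ∀ w, w ∈ e.target := fun w => ht ▸ mem_univ w
    simpa [Complex.ext_iff] using e.symm.injOn (hm _) (hm _) h
  have a1 : ∀ x : ℝ, _ := fun x => uMain_arc (f := fun t : ℝ => e.symm (x + t * Complex.I))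
    (by fun_prop) fun h => zero_ne_one (hi _ _ _ _ h).2
  have a2 : ∀ y : ℝ, _ := fun y => uMain_arc (f := fun t : ℝ => e.symm (t + y * Complex.I))
    (by fun_prop) fun h => zero_ne_one (hi _ _ _ _ h).1
  have m0 : (0 : ℝ) ∈ Icc (0 : ℝ) 1 := left_mem_Icc.2 zero_le_one
  have m1 : (1 : ℝ) ∈ Icc (0 : ℝ) 1 := right_mem_Icc.2 zero_le_one
  refine ⟨_, _, _, _, ⟨(a1 0).1, (a1 1).1, (a2 0).1, (a2 1).1⟩,
    ⟨(a1 0).2, (a1 1).2, (a2 0).2, (a2 1).2⟩, disjoint_left.2 ?_, disjoint_left.2 ?_,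
    ⟨_, ⟨0, m0, rfl⟩, 0, m0, rfl⟩, ⟨_, ⟨0, m0, rfl⟩, 1, m1, rfl⟩, ⟨_, ⟨1, m1, rfl⟩, 0, m0, rfl⟩,
    ⟨_, ⟨1, m1, rfl⟩, 1, m1, rfl⟩⟩
  · rintro _ ⟨s, -, rfl⟩ ⟨t, -, h⟩
    exact one_ne_zero (hi _ _ _ _ h).1
  · rintro _ ⟨s, -, rfl⟩ ⟨t, -, h⟩
    exact one_ne_zero (hi _ _ _ _ h).2

/-- Unicoherence: a closed set that separates two points has a component that does. -/
theorem sph_unicoh (hZ : Nonempty (Z ≃ₜ S2)) {L : Set Z} (hL : IsClosed L) {a b : Z} (ha : a ∉ L)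
    (hb : b ∉ L) (h : ¬ JoinedIn Lᶜ a b) :
    ∃ x ∈ L, ¬ JoinedIn (connectedComponentIn L x)ᶜ a b := by
  obtain ⟨-, h2, -⟩ := sph_conn hZ
  have h4 := uMain_compact hZ
  obtain ⟨e, hs, ht⟩ := sph_chart hZ a
  exact unicoh_of_chart hs ht hL ha hb h

end Vale.Agent.P198
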